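import Vale.Agent.P121.Local

namespace Vale.Agent.P121
open Filter Topology MeasureTheory Metric
open scoped RealInnerProductSpace

structure Br (e : E3) (r : ℝ) (S R X : E3 → E3) (v : E3 → ℝ) : Prop where
  mS : Measurable S
  mR : Measurable R
  mX : Measurable X
  mv : Measurable v
  nS : ∀ x ∈ ball (0 : E3) r, S x ∈ ball e (1 / 100)
  nR : ∀ x ∈ ball (0 : E3) r, R x ∈ ball (-e) (1 / 100)
  inv : ∀ x ∈ ball (0 : E3) r, X (S x) = x
  injR : ∀ x ∈ ball (0 : E3) r, ∀ y ∈ ball (0 : E3) r, R x = R y → x = y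
  bv : ∀ x ∈ ball (0 : E3) r, v (S x) ∈ Set.Icc (0 : ℝ) (11 / 100)
  bw : ∀ x ∈ ball (0 : E3) r, ww e (R x) ∈ Set.Icc (0 : ℝ) (11 / 100)
  acS : ∀ N, volume N = 0 → volume (ball (0 : E3) r ∩ S ⁻¹' N) = 0
  acR : ∀ N, volume N = 0 → volume (ball (0 : E3) r ∩ R ⁻¹' N) = 0
  eq : ∀ a ∈ ball (0 : E3) r, uu a + v (S a) + ww e (R a) = cr a (S a) (R a)
  key : ∀ a ∈ ball (0 : E3) r, ∀ b ∈ ball (0 : E3) r, ∀ c ∈ ball (0 : E3) r,
    uu a + v (S b) + ww e (R c) + 7 * (‖a - b‖ ^ 2 + ‖R c - R b‖ ^ 2) ≤ cr a (S b) (R c)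

lemma Br.mono {e : E3} {r r' : ℝ} {S R X : E3 → E3} {v : E3 → ℝ} (h : Br e r S R X v)
    (hr : r' ≤ r) : Br e r' S R X v := by
  have s : ball (0 : E3) r' ⊆ ball 0 r := ball_subset_ball hr
  exact ⟨h.mS, h.mR, h.mX, h.mv, fun x hx => h.nS x (s hx), fun x hx => h.nR x (s hx),
    fun x hx => h.inv x (s hx), fun x hx y hy => h.injR x (s hx) y (s hy),
    fun x hx => h.bv x (s hx), fun x hx => h.bw x (s hx),
    fun N hN => measure_mono_null (Set.inter_subset_inter_left _ s) (h.acS N hN),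
    fun N hN => measure_mono_null (Set.inter_subset_inter_left _ s) (h.acR N hN),
    fun x hx => h.eq x (s hx), fun a ha b hb c hc => h.key a (s ha) b (s hb) c (s hc)⟩

lemma null_pre {A : Set E3} {S X : E3 → E3} (h1 : ∀ x ∈ A, X (S x) = x)
    (h2 : ∀ x ∈ A, DifferentiableAt ℝ X (S x)) (N : Set E3) (hN : volume N = 0) :
    volume (A ∩ S ⁻¹' N) = 0 := by
  refine measure_mono_null (t := X '' (N ∩ S '' A)) (fun x hx => ⟨S x, ⟨hx.2, x, hx.1, rfl⟩, h1 x hx.1⟩)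
    (addHaar_image_eq_zero_of_differentiableOn_of_addHaar_eq_zero _ ?_
      (measure_mono_null Set.inter_subset_left hN))
  rintro _ ⟨-, x, hx, rfl⟩
  exact (h2 x hx).differentiableWithinAt

lemma far {a b x y : E3} {d : ℝ} (hx : x ∈ ball a (1 / 100)) (hy : y ∈ ball b (1 / 100))
    (h : d ≤ ‖a - b‖) : d - 1 / 50 ≤ ‖x - y‖ := by
  rw [mem_ball] at hx hy
  rw [← dist_eq_norm] at h ⊢
  have := dist_triangle4 a x y b
  rw [dist_comm a x] at this
  linarith

theorem branch {e : E3} (he : ‖e‖ = 1) : ∃ r, 0 < r ∧ ∃ S R X v, Br e r S R X v := by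
  classical
  obtain ⟨hx, x1, x2, x3, -⟩ := ift he (ContinuousLinearMap.fst ℝ _ _) fun v h => Or.inl h
  obtain ⟨hy, y1, y2, -, y4⟩ := ift he ((ContinuousLinearMap.fst ℝ _ _).comp
    (ContinuousLinearMap.snd ℝ _ _)) fun v h => Or.inr (Or.inl h)
  obtain ⟨hz, z1, z2, -, z4⟩ := ift he ((ContinuousLinearMap.snd ℝ _ _).comp
    (ContinuousLinearMap.snd ℝ _ _)) fun v h => Or.inr (Or.inr h)
  simp only [ContinuousLinearMap.comp_apply, ContinuousLinearMap.coe_fst',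
    ContinuousLinearMap.coe_snd'] at x1 x2 x3 y1 y2 y4 z1 z2 z4
  have e0 := ne0 he
  have hF : ContDiffAt ℝ 1 (FF e) (0, e, -e) := by
    have n : ∀ {f : E9 → E3}, ContDiff ℝ 1 f → f (0, e, -e) ≠ 0 →
        ContDiffAt ℝ 1 (fun p => ‖f p‖⁻¹) (0, e, -e) := fun h h0 =>
      (h.contDiffAt.norm ℝ h0).inv (norm_ne_zero_iff.2 h0)
    have a1 := n (f := fun p => p.1 - p.2.1) (by fun_prop) (by simpa using e0)
    have a2 := n (f := fun p => p.1 - p.2.2) (by fun_prop) (by simpa using e0)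
    have a3 := n (f := fun p => p.2.1 - p.2.2) (by fun_prop)
      (norm_ne_zero_iff.1 (by simp only [n2 he]; norm_num))
    have a4 : ContDiffAt ℝ 1 (fun p : E9 => ‖p.1‖ ^ 2) (0, e, -e) := contDiffAt_fst.norm_sq ℝ
    have a5 : ContDiffAt ℝ 1 (fun p : E9 => ‖p.2.2 + e‖ ^ 2) (0, e, -e) :=
      ContDiffAt.norm_sq ℝ (by fun_prop)
    have a6 : ContDiffAt ℝ 1 (fun p : E9 => ⟪e, p.2.2 + e⟫) (0, e, -e) :=
      ContDiffAt.inner ℝ contDiffAt_const (by fun_prop)
    unfold FF cr uu ww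
    fun_prop
  have hF0 : FF e (0, e, -e) = 1 / 10 := by
    simp only [FF, cr, uu, ww, n2 he]; simp [he]; norm_num
  have v1 : ContDiffAt ℝ 1 (fun y => FF e (hy y)) e := ContDiffAt.comp (g := FF e) e (y2 ▸ hF) y1
  obtain ⟨ρ, ρ0, hρ⟩ := Metric.eventually_nhds_iff_ball.1
    ((y1.eventually (by simp)).and (v1.eventually (by simp)))
  have T : Tendsto hx (𝓝 0) (𝓝 (0, e, -e)) := x2 ▸ x1.continuousAt.tendsto
  have TS : Tendsto (fun x => (hx x).2.1) (𝓝 0) (𝓝 e) := (continuous_snd.fst.tendsto _).comp T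
  have TR : Tendsto (fun x => (hx x).2.2) (𝓝 0) (𝓝 (-e)) := (continuous_snd.snd.tendsto _).comp T
  have Tv : Tendsto (fun x => FF e (hx x)) (𝓝 0) (𝓝 (1 / 10)) :=
    hF0 ▸ hF.continuousAt.tendsto.comp T
  have Tw : Tendsto (fun x => ww e (hx x).2.2) (𝓝 0) (𝓝 (1 / 10)) := by
    have : Continuous (ww e) := by unfold ww; fun_prop
    have h := (this.tendsto (-e)).comp TR
    rwa [show ww e (-e) = 1 / 10 by simp [ww]] at h
  have I : Set.Icc (0 : ℝ) (11 / 100) ∈ 𝓝 (1 / 10 : ℝ) := Icc_mem_nhds (by norm_num) (by norm_num)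
  obtain ⟨r, r0, hr⟩ := Metric.eventually_nhds_iff_ball.1
    (((((x1.eventually (by simp)).and x3).and ((T.eventually y4).and (T.eventually z4))).and
      ((TS.eventually (ball_mem_nhds e ρ0)).and (TR.eventually (z1.eventually (by simp))))).and
      (((TS.eventually (ball_mem_nhds e (show (0 : ℝ) < 1 / 100 by norm_num))).and
        (TR.eventually (ball_mem_nhds (-e) (show (0 : ℝ) < 1 / 100 by norm_num)))).and
        (((Tv.eventually I).and (Tw.eventually I)).and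
          (ball_mem_nhds (0 : E3) (show (0 : ℝ) < 1 / 100 by norm_num)))))
  have c1 : ContinuousOn hx (ball 0 r) := fun x h => (hr x h).1.1.1.1.continuousAt.continuousWithinAt
  have c2 : ContinuousOn hy (ball e ρ) := fun x h => (hρ x h).1.continuousAt.continuousWithinAt
  have c3 : ContinuousOn (fun y => FF e (hy y)) (ball e ρ) := fun x h =>
    (hρ x h).2.continuousAt.continuousWithinAt
  have f1 : ∀ x ∈ ball (0 : E3) r, hy (hx x).2.1 = hx x := fun x h =>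
    (hr x h).1.1.2.1 (hr x h).1.1.1.2.2
  have f2 : ∀ x ∈ ball (0 : E3) r, hz (hx x).2.2 = hx x := fun x h =>
    (hr x h).1.1.2.2 (hr x h).1.1.1.2.2
  have f3 : ∀ x ∈ ball (0 : E3) r, (hx x).1 = x := fun x h => (hr x h).1.1.1.2.1
  have f4 : ∀ x ∈ ball (0 : E3) r, (hx x).2.1 ∈ ball e ρ := fun x h => (hr x h).1.2.1
  have f5 : ∀ x ∈ ball (0 : E3) r, hx x = (x, (hx x).2.1, (hx x).2.2) := fun x h =>
    Prod.ext (f3 x h) rfl
  refine ⟨r, r0, (ball 0 r).piecewise (fun x => (hx x).2.1) fun _ => 0,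
    (ball 0 r).piecewise (fun x => (hx x).2.2) fun _ => 0,
    (ball e ρ).piecewise (fun y => (hy y).1) fun _ => 0,
    (ball e ρ).piecewise (fun y => FF e (hy y)) fun _ => 0,
    c1.snd.fst.measurable_piecewise continuousOn_const measurableSet_ball,
    c1.snd.snd.measurable_piecewise continuousOn_const measurableSet_ball,
    c2.fst.measurable_piecewise continuousOn_const measurableSet_ball,
    c3.measurable_piecewise continuousOn_const measurableSet_ball,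
    fun x h => ?_, fun x h => ?_, fun x h => ?_, fun x h y h' => ?_, fun x h => ?_, fun x h => ?_,
    fun N hN => ?_, fun N hN => ?_, fun x h => ?_, fun a ha b hb c hc => ?_⟩
  · rw [Set.piecewise_eq_of_mem _ _ _ h]; exact (hr x h).2.1.1
  · rw [Set.piecewise_eq_of_mem _ _ _ h]; exact (hr x h).2.1.2
  · rw [Set.piecewise_eq_of_mem _ _ _ h, Set.piecewise_eq_of_mem _ _ _ (f4 x h), f1 x h, f3 x h]
  · rw [Set.piecewise_eq_of_mem _ _ _ h, Set.piecewise_eq_of_mem _ _ _ h']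
    intro H
    rw [← f3 x h, ← f2 x h, H, f2 y h', f3 y h']
  · rw [Set.piecewise_eq_of_mem _ _ _ h, Set.piecewise_eq_of_mem _ _ _ (f4 x h), f1 x h]
    exact (hr x h).2.2.1.1
  · rw [Set.piecewise_eq_of_mem _ _ _ h]; exact (hr x h).2.2.1.2
  · refine null_pre (X := fun y => (hy y).1) (fun x h => ?_) (fun x h => ?_) N hN <;>
      rw [Set.piecewise_eq_of_mem _ _ _ h]
    · rw [f1 x h, f3 x h]
    · exact ((hρ _ (f4 x h)).1.differentiableAt (by simp)).fst
  · refine null_pre (X := fun y => (hz y).1) (fun x h => ?_) (fun x h => ?_) N hN <;>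
      rw [Set.piecewise_eq_of_mem _ _ _ h]
    · rw [f2 x h, f3 x h]
    · exact ((hr x h).1.2.2.differentiableAt (by simp)).fst
  · rw [Set.piecewise_eq_of_mem _ _ _ h, Set.piecewise_eq_of_mem _ _ _ h,
      Set.piecewise_eq_of_mem _ _ _ (f4 x h), f1 x h, FF, f3 x h]
    ring
  · rw [Set.piecewise_eq_of_mem _ _ _ hb, Set.piecewise_eq_of_mem _ _ _ hb,
      Set.piecewise_eq_of_mem _ _ _ hc, Set.piecewise_eq_of_mem _ _ _ (f4 b hb), f1 b hb]
    have d1 : 1 ≤ ‖0 - e‖ := by simp [he]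
    have d2 : 1 ≤ ‖0 - -e‖ := by simp [he]
    have d3 : 1 ≤ ‖e - -e‖ := by rw [n2 he]; norm_num
    have p : ∀ {r : E3}, 1 - 1 / 50 ≤ ‖r‖ → r ≠ 0 := fun h => norm_pos_iff.1 (by linarith)
    have := FF_ge (x' := a) (z' := (hx c).2.2) (f5 b hb ▸ (hr b hb).1.1.1.2.2)
      (by linarith [far (hr b hb).2.2.2 (hr b hb).2.1.1 d1])
      (by linarith [far (hr b hb).2.2.2 (hr b hb).2.1.2 d2])
      (by linarith [far (hr b hb).2.1.1 (hr b hb).2.1.2 d3])
      (p (far (hr a ha).2.2.2 (hr b hb).2.1.1 d1)) (p (far (hr a ha).2.2.2 (hr c hc).2.1.2 d2))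
      (p (far (hr b hb).2.1.1 (hr c hc).2.1.2 d3))
    rw [← f5 b hb] at this
    rw [FF.eq_1 e (a, _, _)] at this
    linarith

end Vale.Agent.P121
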