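import Vale.Agent.P121.Defs

namespace Vale.Agent.P121
open MeasureTheory
open scoped ENNReal NNReal

noncomputable def wt : Fin 5 → ℝ≥0∞ := ![1, 2⁻¹, 2⁻¹, 2⁻¹, 2⁻¹]

def glist : List (Fin 5 × Fin 5 × Fin 5) :=
  [(0, 1, 2), (0, 2, 1), (1, 0, 2), (1, 2, 0), (2, 0, 1), (2, 1, 0),
   (0, 3, 4), (0, 4, 3), (3, 0, 4), (3, 4, 0), (4, 0, 3), (4, 3, 0)]

noncomputable def mm (ν : Measure E3) (T : Fin 5 → E3 → E3) : Measure E3 :=
  ∑ l, wt l • ν.map (T l)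

lemma wt_ne (l : Fin 5) : wt l ≠ 0 := by fin_cases l <;> simp [wt]

variable {ν : Measure E3} {T : Fin 5 → E3 → E3} {A : Set E3}

lemma lint_mm (hT : ∀ l, Measurable (T l)) {f : E3 → ℝ≥0∞} (hf : Measurable f) :
    ∫⁻ x, f x ∂(mm ν T) = ∑ l, wt l * ∫⁻ a, f (T l a) ∂ν := by
  simp only [mm, lintegral_finsetSum_measure, lintegral_smul_measure, lintegral_map hf (hT _),
    smul_eq_mul]

lemma ae_mm (hT : ∀ l, Measurable (T l)) {P : E3 → Prop} (h : ∀ᵐ x ∂(mm ν T), P x) (l : Fin 5) :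
    ∀ᵐ a ∂ν, P (T l a) := by
  rw [mm, ae_finsetSum_measure_iff] at h
  exact ae_of_ae_map (hT l).aemeasurable
    ((Measure.ae_ennreal_smul_measure_iff (wt_ne l)).1 (h l (Finset.mem_univ l)))

lemma ae_W (hT : ∀ l, Measurable (T l)) (hA : MeasurableSet A) (hν : ∀ᵐ a ∂ν, a ∈ A)
    (hi : ∀ l l' a a', a ∈ A → a' ∈ A → T l a = T l' a' → l = l' ∧ a = a') :
    ∀ᵐ x ∂(mm ν T), ∃ l, ∃ a ∈ A, x = T l a := by
  rw [mm, ae_finsetSum_measure_iff]
  intro l _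
  refine Measure.ae_smul_measure ?_ _
  have := (ae_map_iff (μ := ν) (hT l).aemeasurable (hA.image_of_measurable_injOn (hT l)
    fun a ha a' ha' h => (hi l l a a' ha ha' h).2)).2 (hν.mono fun a ha => ⟨a, ha, rfl⟩)
  exact this.mono fun x ⟨a, ha, h⟩ => ⟨l, a, ha, h.symm⟩

theorem no_monge [IsFiniteMeasure ν] (h0 : ν Set.univ ≠ 0) (hT : ∀ l, Measurable (T l))
    (hT0 : ∀ a, T 0 a = a) (hA : MeasurableSet A) (hν : ∀ᵐ a ∂ν, a ∈ A)
    (hi : ∀ l l' a a', a ∈ A → a' ∈ A → T l a = T l' a' → l = l' ∧ a = a')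
    {T2 T3 : E3 → E3} (m2 : Measurable T2) (m3 : Measurable T3)
    (p2 : (mm ν T).map T2 = mm ν T) (p3 : (mm ν T).map T3 = mm ν T)
    (h : ∀ᵐ x ∂(mm ν T), ∃ a ∈ A, ∃ l ∈ glist, x = T l.1 a ∧ T2 x = T l.2.1 a ∧ T3 x = T l.2.2 a) :
    False := by
  classical
  have mD : ∀ {F}, MeasurableSet F → MeasurableSet (T 1 '' (A ∩ F)) := fun hF =>
    (hA.inter hF).image_of_measurable_injOn (hT 1) fun a ha a' ha' h => (hi 1 1 a a' ha.1 ha'.1 h).2
  have iD : ∀ F l a, a ∈ A → (T l a ∈ T 1 '' (A ∩ F) ↔ l = 1 ∧ a ∈ F) := fun F l a ha =>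
    ⟨fun ⟨b, hb, e⟩ => by
      obtain ⟨e1, e2⟩ := hi _ _ _ _ hb.1 ha e
      exact ⟨e1.symm, e2 ▸ hb.2⟩, fun ⟨e, hF⟩ => ⟨a, ⟨ha, hF⟩, e ▸ rfl⟩⟩
  obtain ⟨E, hE⟩ : ∃ E, E = T2 ⁻¹' (T 1 '' (A ∩ Set.univ)) ∪ T3 ⁻¹' (T 1 '' (A ∩ Set.univ)) :=
    ⟨_, rfl⟩
  have mE : MeasurableSet E := hE ▸ (m2 (mD .univ)).union (m3 (mD .univ))
  have key : ∀ F, MeasurableSet F → 2⁻¹ * ν F + 2⁻¹ * ν F + 2⁻¹ * ν F =
      ν (F ∩ E) + 2⁻¹ * ν F + 2⁻¹ * ν F := by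
    intro F hF
    obtain ⟨g, hg⟩ : ∃ g : E3 → ℝ≥0∞, g = (T 1 '' (A ∩ F)).indicator 1 := ⟨_, rfl⟩
    have mg : Measurable g := hg ▸ measurable_one.indicator (mD hF)
    have mg2 : Measurable fun x => g (T2 x) := mg.comp m2
    have mg3 : Measurable fun x => g (T3 x) := mg.comp m3
    have g1 : ∀ l a, a ∈ A → g (T l a) = if l = 1 then F.indicator 1 a else 0 := fun l a ha => by
      simp only [hg, Set.indicator_apply, iD F l a ha, Pi.one_apply, ite_and]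
    have a1 : ∫⁻ x, g x ∂(mm ν T) = 2⁻¹ * ν F := by
      rw [lint_mm hT mg, Finset.sum_eq_single 1 (fun l _ hl => ?_) (by simp),
        lintegral_congr_ae (hν.mono fun a ha => g1 1 a ha)]
      · simp [wt, lintegral_indicator_one hF]
      · rw [lintegral_congr_ae (hν.mono fun a ha => g1 l a ha)]; simp [hl]
    have a2 : ∫⁻ x, g x + g (T2 x) + g (T3 x) ∂(mm ν T) = 2⁻¹ * ν F + 2⁻¹ * ν F + 2⁻¹ * ν F := by
      rw [lintegral_add_right _ mg3, lintegral_add_right _ mg2,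
        ← lintegral_map mg m2, ← lintegral_map mg m3, p2, p3, a1]
    have a3 : ∀ l, ∀ᵐ a ∂ν, g (T l a) + g (T2 (T l a)) + g (T3 (T l a)) =
        ![(F ∩ E).indicator 1 a, F.indicator 1 a, F.indicator 1 a, 0, 0] l := fun l => by
      filter_upwards [ae_mm hT h l, hν] with a ⟨b, hb, m, hm, e1, e2, e3⟩ ha
      obtain ⟨rfl, rfl⟩ := hi _ _ _ _ ha hb e1
      have e4 : m.1 = 0 → (a ∈ E ↔ m.2.1 = 1 ∨ m.2.2 = 1) := fun e => by
        rw [e, hT0] at e2 e3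
        simp only [hE, Set.mem_union, Set.mem_preimage, e2, e3, iD _ _ a ha, Set.mem_univ, and_true]
      rw [e2, e3, g1 _ a ha, g1 _ a ha, g1 _ a ha]
      simp only [glist, List.mem_cons, List.not_mem_nil, or_false] at hm
      rcases hm with rfl | rfl | rfl | rfl | rfl | rfl | rfl | rfl | rfl | rfl | rfl | rfl <;>
        simp [Set.indicator_apply] at e4 ⊢ <;> simp [e4]
    rw [← a2, lint_mm hT (f := fun x => g x + g (T2 x) + g (T3 x)) (by fun_prop)]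
    simp only [lintegral_congr_ae (a3 _), Fin.sum_univ_five]
    simp [wt, lintegral_indicator_one hF, lintegral_indicator_one (hF.inter mE)]
  have k1 := key E mE
  have k2 := key Set.univ .univ
  rw [Set.inter_self] at k1
  rw [Set.univ_inter] at k2
  have f1 := measure_ne_top ν E
  have f2 := measure_ne_top ν Set.univ
  generalize ν E = x at *
  generalize ν Set.univ = y at *
  lift x to ℝ≥0 using f1
  lift y to ℝ≥0 using f2
  have c : (2⁻¹ : ℝ≥0∞) = ((2⁻¹ : ℝ≥0) : ℝ≥0∞) := by simp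
  rw [c] at k1 k2
  norm_cast at k1 k2 h0
  have k1' := congrArg NNReal.toReal k1
  have k2' := congrArg NNReal.toReal k2
  push_cast at k1' k2'
  exact h0 (NNReal.coe_eq_zero.1 (by linarith))

end Vale.Agent.P121
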