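import Mathlib

namespace Vale.Agent.P121
open MeasureTheory
open scoped ENNReal

abbrev E3 := EuclideanSpace ℝ (Fin 3)

/-- the Coulomb cost, `∞` when two points coincide -/
noncomputable def cost (x y z : E3) : ℝ≥0∞ := (edist x y)⁻¹ + (edist x z)⁻¹ + (edist y z)⁻¹

/-- probability measures on triples whose three marginals are `μ` -/
def Couplings (μ : Measure E3) : Set (Measure (E3 × E3 × E3)) :=
  {π | IsProbabilityMeasure π ∧ π.map (fun p => p.1) = μ ∧ π.map (fun p => p.2.1) = μ ∧
    π.map (fun p => p.2.2) = μ}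

/-- the Kantorovich value -/
noncomputable def kant (μ : Measure E3) : ℝ≥0∞ :=
  ⨅ π ∈ Couplings μ, ∫⁻ p, cost p.1 p.2.1 p.2.2 ∂π

end Vale.Agent.P121
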