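import Vale.Agent.P121.Defs

namespace Vale.Agent.P121
open Filter Topology
open scoped RealInnerProductSpace

/-- gradient of the Coulomb kernel -/
noncomputable def gr (r : E3) : E3 := -(‖r‖⁻¹ ^ 3) • r

lemma kern_ge {r s : E3} (hr : r ≠ 0) (hs : s ≠ 0) :
    ‖r‖⁻¹ + ⟪gr r, s - r⟫ - ‖r‖⁻¹ ^ 3 / 2 * ‖s - r‖ ^ 2 ≤ ‖s‖⁻¹ := by
  have a := norm_pos_iff.2 hr
  have b := norm_pos_iff.2 hs
  have h : ‖s‖ ^ 2 = ‖r‖ ^ 2 + 2 * ⟪r, s - r⟫ + ‖s - r‖ ^ 2 := by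
    rw [← norm_add_sq_real]; simp
  rw [gr, real_inner_smul_left]
  have h2 : ‖r‖⁻¹ + -(‖r‖⁻¹ ^ 3) * ⟪r, s - r⟫ - ‖r‖⁻¹ ^ 3 / 2 * ‖s - r‖ ^ 2 =
      ‖r‖⁻¹ - ‖r‖⁻¹ ^ 3 / 2 * (‖s‖ ^ 2 - ‖r‖ ^ 2) := by rw [h]; ring
  rw [h2, ← sub_nonneg]
  have h3 : ‖s‖⁻¹ - (‖r‖⁻¹ - ‖r‖⁻¹ ^ 3 / 2 * (‖s‖ ^ 2 - ‖r‖ ^ 2)) =
      (‖s‖ - ‖r‖) ^ 2 * (‖s‖ + 2 * ‖r‖) / (2 * ‖r‖ ^ 3 * ‖s‖) := by
    field_simp; ring
  rw [h3]; positivity

lemma gr_smooth {r : E3} (hr : r ≠ 0) : ContDiffAt ℝ 1 gr r :=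
  (((contDiffAt_norm ℝ hr).inv (norm_ne_zero_iff.2 hr)).pow 3).neg.smul contDiffAt_id

lemma gr_deriv {r : E3} (hr : r ≠ 0) (ξ : E3) :
    fderiv ℝ gr r ξ = (3 * ‖r‖⁻¹ ^ 5 * ⟪r, ξ⟫) • r - ‖r‖⁻¹ ^ 3 • ξ := by
  have a := norm_pos_iff.2 hr
  have h1 := (hasStrictFDerivAt_norm_sq r).hasFDerivAt.sqrt (by positivity)
  simp only [Real.sqrt_sq (norm_nonneg _)] at h1
  have h2 := ((hasDerivAt_inv a.ne').comp_hasFDerivAt r h1).pow 3
  have h3 := (h2.neg.smul (hasFDerivAt_id r)).fderiv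
  have : gr = (-fun x : E3 => ((fun y : ℝ => y⁻¹) ∘ fun x => ‖x‖) x ^ 3) • id := rfl
  rw [this, h3]
  simp only [ContinuousLinearMap.add_apply, ContinuousLinearMap.smul_apply, id,
    ContinuousLinearMap.id_apply, ContinuousLinearMap.smulRight_apply, Pi.neg_apply,
    ContinuousLinearMap.neg_apply, Function.comp, innerSL_apply_apply, smul_eq_mul, nsmul_eq_mul]
  rw [neg_smul, add_comm, ← sub_eq_add_neg]
  congr 2
  push_cast
  field_simp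

abbrev E9 := E3 × E3 × E3

noncomputable def GG (e : E3) (p : E9) : E3 × E3 :=
  (gr (p.1 - p.2.1) + gr (p.1 - p.2.2) + (20 : ℝ) • p.1,
   -gr (p.1 - p.2.2) - gr (p.2.1 - p.2.2) + (20 : ℝ) • (p.2.2 + e) - (5 / 4 : ℝ) • e)

noncomputable def DD (e ξ : E3) : E3 := (3 * ⟪e, ξ⟫) • e - ξ

section
variable {e : E3} (he : ‖e‖ = 1)
include he

lemma ne0 : e ≠ 0 := by rintro rfl; simp at he

lemma n2 : ‖e - -e‖ = 2 := by rw [sub_neg_eq_add, ← two_smul ℝ, norm_smul, he]; simp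

lemma GG_base : GG e (0, e, -e) = 0 := by
  simp only [GG, gr, n2 he, zero_sub, neg_neg, norm_neg, he]
  ext1
  · simp
  · simp only [Prod.snd_zero]; module

lemma GG_smooth : ContDiffAt ℝ 1 (GG e) (0, e, -e) := by
  have h1 : ContDiffAt ℝ 1 (fun p : E9 => gr (p.1 - p.2.1)) (0, e, -e) :=
    ContDiffAt.comp (g := gr) _ (gr_smooth (by simpa using ne0 he)) (by fun_prop)
  have h2 : ContDiffAt ℝ 1 (fun p : E9 => gr (p.1 - p.2.2)) (0, e, -e) :=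
    ContDiffAt.comp (g := gr) _ (gr_smooth (by simpa using ne0 he)) (by fun_prop)
  have h3 : ContDiffAt ℝ 1 (fun p : E9 => gr (p.2.1 - p.2.2)) (0, e, -e) :=
    ContDiffAt.comp (g := gr) _ (gr_smooth (norm_ne_zero_iff.1 (by simp only [n2 he]; norm_num)))
      (by fun_prop)
  unfold GG
  fun_prop

lemma GG_deriv (v : E9) : fderiv ℝ (GG e) (0, e, -e) v =
    (DD e (v.1 - v.2.1) + DD e (v.1 - v.2.2) + (20 : ℝ) • v.1,
     -DD e (v.1 - v.2.2) - (1 / 8 : ℝ) • DD e (v.2.1 - v.2.2) + (20 : ℝ) • v.2.2) := by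
  have d : ∀ {r : E3}, r ≠ 0 → HasFDerivAt gr (fderiv ℝ gr r) r := fun h =>
    ((gr_smooth h).differentiableAt (by simp)).hasFDerivAt
  have x : HasFDerivAt (fun p : E9 => p.1) _ (0, e, -e) := hasFDerivAt_fst (𝕜 := ℝ)
  have y : HasFDerivAt (fun p : E9 => p.2.1) _ (0, e, -e) := (hasFDerivAt_snd (𝕜 := ℝ)).fst
  have z : HasFDerivAt (fun p : E9 => p.2.2) _ (0, e, -e) := (hasFDerivAt_snd (𝕜 := ℝ)).snd
  have a1 : (0 : E3) - e ≠ 0 := by simpa using ne0 he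
  have a2 : (0 : E3) - -e ≠ 0 := by simpa using ne0 he
  have a3 : e - -e ≠ 0 := norm_ne_zero_iff.1 (by simp only [n2 he]; norm_num)
  have h1 := HasFDerivAt.comp (g := gr) ((0, e, -e) : E9) (d a1) (x.fun_sub y)
  have h2 := HasFDerivAt.comp (g := gr) ((0, e, -e) : E9) (d a2) (x.fun_sub z)
  have h3 := HasFDerivAt.comp (g := gr) ((0, e, -e) : E9) (d a3) (y.fun_sub z)
  have h := (((h1.fun_add h2).fun_add (x.fun_const_smul (20 : ℝ))).prodMk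
    (((h2.fun_neg.fun_sub h3).fun_add ((z.add_const e).fun_const_smul (20 : ℝ))).sub_const
      ((5 / 4 : ℝ) • e))).fderiv
  refine (congrArg (fun L : E9 →L[ℝ] E3 × E3 => L v) h).trans ?_
  simp only [ContinuousLinearMap.prod_apply, ContinuousLinearMap.add_apply,
    ContinuousLinearMap.sub_apply, ContinuousLinearMap.neg_apply, ContinuousLinearMap.smul_apply,
    ContinuousLinearMap.comp_apply, ContinuousLinearMap.coe_fst', ContinuousLinearMap.coe_snd',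
    gr_deriv a1, gr_deriv a2, gr_deriv a3, n2 he, DD]
  simp only [zero_sub, zero_add, norm_neg, he, sub_neg_eq_add, inner_neg_left, inner_add_left,
    inner_zero_left]
  ext1 <;> simp only <;> module

lemma DD_inner (ξ : E3) : ⟪e, DD e ξ⟫ = 2 * ⟪e, ξ⟫ := by
  rw [DD, inner_sub_right, real_inner_smul_right, real_inner_self_eq_norm_sq, he]; ring

lemma lin_inj {v : E9} (h : fderiv ℝ (GG e) (0, e, -e) v = 0)
    (h0 : v.1 = 0 ∨ v.2.1 = 0 ∨ v.2.2 = 0) : v = 0 := by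
  rw [GG_deriv he, Prod.ext_iff] at h
  obtain ⟨ξ, η, ζ⟩ := v
  obtain ⟨h1, h2⟩ := h
  simp only [Prod.fst_zero, Prod.snd_zero] at h0 h1 h2
  have i1 := congrArg (fun w => ⟪e, w⟫) h1
  have i2 := congrArg (fun w => ⟪e, w⟫) h2
  simp only [inner_add_right, inner_sub_right, inner_neg_right, real_inner_smul_right, DD_inner he,
    inner_zero_right] at i1 i2
  have hz : ⟪e, ξ⟫ = 0 ∧ ⟪e, η⟫ = 0 ∧ ⟪e, ζ⟫ = 0 := by
    rcases h0 with h | h | h <;> simp only [h, inner_zero_right] at i1 i2 ⊢ <;>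
      refine ⟨?_, ?_, ?_⟩ <;> first | trivial | linarith
  simp only [DD, inner_sub_right, hz.1, hz.2.1, hz.2.2] at h1 h2
  have j1 := fun i => congrArg (fun w : E3 => w i) h1
  have j2 := fun i => congrArg (fun w : E3 => w i) h2
  have j0 : ∀ i, ξ i = 0 ∨ η i = 0 ∨ ζ i = 0 := fun i => by
    rcases h0 with h | h | h <;> simp [h]
  have : ∀ i, ξ i = 0 ∧ η i = 0 ∧ ζ i = 0 := fun i => by
    have a := j1 i
    have b := j2 i
    simp at a b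
    rcases j0 i with h | h | h <;> refine ⟨?_, ?_, ?_⟩ <;> linarith
  ext i
  exacts [(this i).1, (this i).2.1, (this i).2.2]

lemma ift (π : E9 →L[ℝ] E3) (hπ : ∀ v, π v = 0 → v.1 = 0 ∨ v.2.1 = 0 ∨ v.2.2 = 0) :
    ∃ h : E3 → E9, ContDiffAt ℝ 1 h (π (0, e, -e)) ∧ h (π (0, e, -e)) = (0, e, -e) ∧
      (∀ᶠ v in 𝓝 (π (0, e, -e)), π (h v) = v ∧ GG e (h v) = 0) ∧
      ∀ᶠ p in 𝓝 ((0, e, -e) : E9), GG e p = 0 → h (π p) = p := by
  have hinj : Function.Injective (π.prod (fderiv ℝ (GG e) (0, e, -e))).toLinearMap :=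
    (injective_iff_map_eq_zero _).2 fun v hv =>
      lin_inj he (congrArg Prod.snd hv) (hπ v (congrArg Prod.fst hv))
  have hd : HasFDerivAt (fun p => (π p, GG e p))
      ((LinearEquiv.ofInjectiveEndo _ hinj).toContinuousLinearEquiv : E9 →L[ℝ] E9) (0, e, -e) :=
    π.hasFDerivAt.prodMk ((GG_smooth he).differentiableAt (by simp)).hasFDerivAt
  have hs : ContDiffAt ℝ 1 (fun p => (π p, GG e p)) (0, e, -e) :=
    π.contDiff.contDiffAt.prodMk (GG_smooth he)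
  have h1 := hs.to_localInverse hd one_ne_zero
  have h2 := hs.localInverse_apply_image hd one_ne_zero
  have h3 := (hs.hasStrictFDerivAt' hd one_ne_zero).eventually_left_inverse
  have h4 := (hs.hasStrictFDerivAt' hd one_ne_zero).eventually_right_inverse
  simp only [GG_base he] at h1 h2 h4
  refine ⟨fun v => hs.localInverse hd one_ne_zero (v, 0),
    ContDiffAt.comp (g := hs.localInverse hd one_ne_zero) _ h1 (by fun_prop), h2, ?_, ?_⟩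
  · have : Tendsto (fun v : E3 => (v, (0 : E3 × E3))) (𝓝 (π (0, e, -e))) (𝓝 (π (0, e, -e), 0)) :=
      (by fun_prop : Continuous fun v : E3 => (v, (0 : E3 × E3))).tendsto _
    filter_upwards [this.eventually h4] with v hv using Prod.ext_iff.1 hv
  · filter_upwards [h3] with p hp h0
    rw [← h0]; exact hp

end

noncomputable def cr (x y z : E3) : ℝ := ‖x - y‖⁻¹ + ‖x - z‖⁻¹ + ‖y - z‖⁻¹
noncomputable def uu (x : E3) : ℝ := 23 / 10 - 10 * ‖x‖ ^ 2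
noncomputable def ww (e z : E3) : ℝ := 1 / 10 - 10 * ‖z + e‖ ^ 2 + 5 / 4 * ⟪e, z + e⟫
noncomputable def FF (e : E3) (p : E9) : ℝ := cr p.1 p.2.1 p.2.2 - uu p.1 - ww e p.2.2

lemma coef_le {r : E3} (h : 9 / 10 ≤ ‖r‖) : ‖r‖⁻¹ ^ 3 / 2 ≤ 1 := by
  have h1 : ‖r‖⁻¹ ≤ 10 / 9 := by rw [inv_le_comm₀ (by linarith) (by norm_num)]; linarith
  have := pow_le_pow_left₀ (by positivity) h1 3
  linarith

lemma FF_ge {e x y z x' z' : E3} (hG : GG e (x, y, z) = 0) (h1 : 9 / 10 ≤ ‖x - y‖)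
    (h2 : 9 / 10 ≤ ‖x - z‖) (h3 : 9 / 10 ≤ ‖y - z‖) (h4 : x' - y ≠ 0) (h5 : x' - z' ≠ 0)
    (h6 : y - z' ≠ 0) :
    FF e (x, y, z) + 7 * (‖x' - x‖ ^ 2 + ‖z' - z‖ ^ 2) ≤ FF e (x', y, z') := by
  have p : ∀ {r : E3}, 9 / 10 ≤ ‖r‖ → r ≠ 0 := fun h => norm_pos_iff.1 (by linarith)
  have k1 := kern_ge (p h1) h4
  have k2 := kern_ge (p h2) h5
  have k3 := kern_ge (p h3) h6
  obtain ⟨a, ha⟩ : ∃ a, a = x' - x := ⟨_, rfl⟩
  obtain ⟨b, hb⟩ : ∃ b, b = z' - z := ⟨_, rfl⟩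
  rw [show x' - y - (x - y) = a by rw [ha]; abel] at k1
  rw [show x' - z' - (x - z) = a - b by rw [ha, hb]; abel] at k2
  rw [show y - z' - (y - z) = -b by rw [hb]; abel, norm_neg] at k3
  have c1 := mul_le_mul_of_nonneg_right (coef_le h1) (sq_nonneg ‖a‖)
  have c2 := mul_le_mul_of_nonneg_right (coef_le h2) (sq_nonneg ‖a - b‖)
  have c3 := mul_le_mul_of_nonneg_right (coef_le h3) (sq_nonneg ‖b‖)
  have c4 : ‖a - b‖ ^ 2 ≤ 2 * ‖a‖ ^ 2 + 2 * ‖b‖ ^ 2 := by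
    have := parallelogram_law_with_norm ℝ a b
    nlinarith [sq_nonneg ‖a + b‖]
  have g1 := congrArg (fun w : E3 × E3 => ⟪w.1, a⟫) hG
  have g2 := congrArg (fun w : E3 × E3 => ⟪w.2, b⟫) hG
  simp only [GG, Prod.fst_zero, Prod.snd_zero, inner_zero_left, inner_add_left (_ + _),
    inner_add_left (gr _), inner_add_left (_ - _), inner_sub_left, inner_neg_left,
    real_inner_smul_left] at g1 g2
  have q1 : ‖x'‖ ^ 2 = ‖x‖ ^ 2 + 2 * ⟪x, a⟫ + ‖a‖ ^ 2 := by rw [← norm_add_sq_real, ha]; simp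
  have q2 : ‖z' + e‖ ^ 2 = ‖z + e‖ ^ 2 + 2 * ⟪z + e, b⟫ + ‖b‖ ^ 2 := by
    rw [← norm_add_sq_real, hb]; congr 2; abel
  have q3 : ⟪e, z' + e⟫ = ⟪e, z + e⟫ + ⟪e, b⟫ := by rw [← inner_add_right, hb]; congr 1; abel
  rw [inner_sub_right] at k2
  rw [inner_neg_right] at k3
  simp only [FF, cr, uu, ww, ← ha, ← hb]
  linarith

end Vale.Agent.P121
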