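import Vale.Agent.P121.Branch
import Vale.Agent.P121.Count

namespace Vale.Agent.P121
open MeasureTheory Metric
open scoped ENNReal NNReal

noncomputable def e1 : E3 := EuclideanSpace.single 0 1
noncomputable def e2 : E3 := EuclideanSpace.single 1 1
lemma ne1 : ‖e1‖ = 1 := by simp [e1]
lemma ne2 : ‖e2‖ = 1 := by simp [e2]

noncomputable def ctr : Fin 5 → E3 := ![0, e1, -e1, e2, -e2]

/-- squared distances of the centres -/
def dsq : Fin 5 → Fin 5 → ℕ :=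
  ![![0, 1, 1, 1, 1], ![1, 0, 4, 2, 2], ![1, 4, 0, 2, 2], ![1, 2, 2, 0, 4], ![1, 2, 2, 4, 0]]

lemma ctr_sq (l m : Fin 5) : ‖ctr l - ctr m‖ ^ 2 = dsq l m := by
  rw [EuclideanSpace.norm_sq_eq]
  fin_cases l <;> fin_cases m <;> simp [ctr, dsq, e1, e2, Fin.sum_univ_three] <;> norm_num

def lb (d : ℕ) : ℕ := if d = 0 then 50000 else if d = 1 then 980 else if d = 2 then 690 else 495
def ub (l : Fin 5) : ℕ := if l = 0 then 2300 else 110

lemma table : ∀ a b c : Fin 5, (a, b, c) ∈ glist ∨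
    ub a + ub b + ub c < lb (dsq a b) + lb (dsq a c) + lb (dsq b c) := by decide

lemma dsq_ne : ∀ a b : Fin 5, a ≠ b → 1 ≤ dsq a b := by decide

lemma dsq_val : ∀ a b : Fin 5, dsq a b = 0 ∨ dsq a b = 1 ∨ dsq a b = 2 ∨ dsq a b = 4 := by decide

lemma ball_disj {l m : Fin 5} {x : E3} (h1 : x ∈ ball (ctr l) (1 / 100))
    (h2 : x ∈ ball (ctr m) (1 / 100)) : l = m := by
  by_contra h
  have h3 : (1 : ℝ) ≤ dsq l m := by exact_mod_cast dsq_ne l m h
  have h4 : 1 ≤ ‖ctr l - ctr m‖ := by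
    rw [← ctr_sq] at h3; nlinarith [norm_nonneg (ctr l - ctr m)]
  have := far h1 h2 h4
  simp at this; linarith

lemma inv_ge {l m : Fin 5} {x y : E3} (h1 : x ∈ ball (ctr l) (1 / 100))
    (h2 : y ∈ ball (ctr m) (1 / 100)) : ENNReal.ofReal (lb (dsq l m) / 1000) ≤ (edist x y)⁻¹ := by
  rw [ENNReal.le_inv_iff_mul_le, edist_dist, ← ENNReal.ofReal_mul (by positivity),
    ENNReal.ofReal_le_one]
  have h3 := dist_triangle4 x (ctr l) (ctr m) y
  rw [mem_ball] at h1 h2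
  rw [dist_comm (ctr m), dist_eq_norm (ctr l)] at h3
  have h4 := ctr_sq l m
  have h5 := norm_nonneg (ctr l - ctr m)
  rcases dsq_val l m with h | h | h | h <;> rw [h] at h4 ⊢ <;> simp only [lb] <;> norm_num at h4 ⊢
  · rw [h4] at h3; simp at h3; linarith
  · have : ‖ctr l - ctr m‖ ≤ 1 := by rcases h4 with h | h <;> linarith
    linarith
  · have : ‖ctr l - ctr m‖ ≤ 1.415 := by nlinarith
    linarith
  · have : ‖ctr l - ctr m‖ ≤ 2 := by nlinarith
    linarith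

lemma cost_eq {x y z : E3} (h1 : x ≠ y) (h2 : x ≠ z) (h3 : y ≠ z) :
    cost x y z = ENNReal.ofReal (cr x y z) := by
  have : ∀ {x y : E3}, x ≠ y → (edist x y)⁻¹ = ENNReal.ofReal ‖x - y‖⁻¹ := fun h => by
    rw [edist_dist, dist_eq_norm, ENNReal.ofReal_inv_of_pos (norm_pos_iff.2 (sub_ne_zero.2 h))]
  rw [cost, cr, this h1, this h2, this h3, ENNReal.ofReal_add (by positivity) (by positivity),
    ENNReal.ofReal_add (by positivity) (by positivity)]

def QQ (Φ : E3 → ℝ≥0∞) (x y z a b c : E3) : Prop :=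
  Φ x + Φ y + Φ z ≤ cost x y z ∧ (cost x y z ≤ Φ x + Φ y + Φ z → a = b ∧ a = c) ∧
    (a = b → a = c → cost x y z ≤ Φ x + Φ y + Φ z)

lemma QQ.s12 {Φ : E3 → ℝ≥0∞} {x y z a b c : E3} (h : QQ Φ x y z a b c) : QQ Φ y x z b a c := by
  have e : cost y x z = cost x y z := by simp only [cost, edist_comm y x]; ring
  rw [QQ, e, add_comm (Φ y)]
  exact ⟨h.1, fun H => ⟨(h.2.1 H).1.symm, (h.2.1 H).1.symm.trans (h.2.1 H).2⟩,
    fun a b => h.2.2 a.symm (a.symm.trans b)⟩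

lemma QQ.s23 {Φ : E3 → ℝ≥0∞} {x y z a b c : E3} (h : QQ Φ x y z a b c) : QQ Φ x z y a c b := by
  have e : cost x z y = cost x y z := by simp only [cost, edist_comm z y]; ring
  rw [QQ, e, add_right_comm (Φ x)]
  exact ⟨h.1, fun H => (h.2.1 H).symm, fun a b => h.2.2 b a⟩

lemma uu_mem {a : E3} (h : a ∈ ball (0 : E3) (1 / 100)) : uu a ∈ Set.Icc (0 : ℝ) (23 / 10) := by
  rw [mem_ball_zero_iff] at h
  have := norm_nonneg a
  unfold uu
  constructor <;> nlinarith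

lemma Br.qq {e : E3} {r : ℝ} {S R X : E3 → E3} {v : E3 → ℝ} (h : Br e r S R X v) (hr : r ≤ 1 / 100)
    {Φ : E3 → ℝ≥0∞} {a b c : E3} (ha : a ∈ ball (0 : E3) r) (hb : b ∈ ball (0 : E3) r)
    (hc : c ∈ ball (0 : E3) r) (n1 : a ≠ S b) (n2 : a ≠ R c) (n3 : S b ≠ R c)
    (p1 : Φ a = ENNReal.ofReal (uu a)) (p2 : Φ (S b) = ENNReal.ofReal (v (S b)))
    (p3 : Φ (R c) = ENNReal.ofReal (ww e (R c))) : QQ Φ a (S b) (R c) a b c := by
  have u0 := (uu_mem (ball_subset_ball hr ha)).1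
  have v0 := (h.bv b hb).1
  have w0 := (h.bw c hc).1
  have k := h.key a ha b hb c hc
  have s1 := sq_nonneg ‖a - b‖
  have s2 := sq_nonneg ‖R c - R b‖
  rw [QQ, cost_eq n1 n2 n3, p1, p2, p3, ← ENNReal.ofReal_add u0 v0,
    ← ENNReal.ofReal_add (by positivity) w0]
  refine ⟨ENNReal.ofReal_le_ofReal (by linarith), fun H => ?_, ?_⟩
  · rw [ENNReal.ofReal_le_ofReal_iff (by positivity)] at H
    have t1 : a = b := sub_eq_zero.1 (norm_eq_zero.1 (pow_eq_zero_iff two_ne_zero |>.1 (by linarith)))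
    have t2 : R c = R b :=
      sub_eq_zero.1 (norm_eq_zero.1 (pow_eq_zero_iff two_ne_zero |>.1 (by linarith)))
    exact ⟨t1, t1.trans (h.injR c hc b hb t2).symm⟩
  · rintro rfl rfl
    rw [h.eq a ha]

theorem setup : ∃ (r : ℝ) (T : Fin 5 → E3 → E3) (Φ : E3 → ℝ≥0∞), 0 < r ∧ (∀ l, Measurable (T l)) ∧
    (∀ a, T 0 a = a) ∧ Measurable Φ ∧
    (∀ l l' a a', a ∈ ball (0 : E3) r → a' ∈ ball (0 : E3) r → T l a = T l' a' → l = l' ∧ a = a') ∧
    (∀ l N, volume N = 0 → volume (ball (0 : E3) r ∩ T l ⁻¹' N) = 0) ∧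
    (∀ l, ∀ a ∈ ball (0 : E3) r, Φ (T l a) ≤ 3) ∧
    ∀ l m n, ∀ a ∈ ball (0 : E3) r, ∀ b ∈ ball (0 : E3) r, ∀ c ∈ ball (0 : E3) r,
      Φ (T l a) + Φ (T m b) + Φ (T n c) ≤ cost (T l a) (T m b) (T n c) ∧
      (cost (T l a) (T m b) (T n c) ≤ Φ (T l a) + Φ (T m b) + Φ (T n c) ↔
        (l, m, n) ∈ glist ∧ a = b ∧ a = c) := by
  classical
  obtain ⟨r1, h1, S1, R1, X1, v1, B1⟩ := branch ne1
  obtain ⟨r2, h2, S2, R2, X2, v2, B2⟩ := branch ne2
  obtain ⟨r, hr⟩ : ∃ r, r = min (min r1 r2) (1 / 100) := ⟨_, rfl⟩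
  have r0 : 0 < r := by rw [hr]; positivity
  have r3 : r ≤ 1 / 100 := hr ▸ min_le_right _ _
  replace B1 := B1.mono (show r ≤ r1 from hr ▸ (min_le_left _ _).trans (min_le_left _ _))
  replace B2 := B2.mono (show r ≤ r2 from hr ▸ (min_le_left _ _).trans (min_le_right _ _))
  obtain ⟨T, hT⟩ : ∃ T : Fin 5 → E3 → E3, T = ![id, S1, R1, S2, R2] := ⟨_, rfl⟩
  obtain ⟨ψ, hψ⟩ : ∃ ψ : Fin 5 → E3 → ℝ, ψ = ![uu, v1, ww e1, v2, ww e2] := ⟨_, rfl⟩
  obtain ⟨Φ, hΦ⟩ : ∃ Φ : E3 → ℝ≥0∞,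
    Φ = fun x => ENNReal.ofReal (∑ l, (ball (ctr l) (1 / 100)).indicator (ψ l) x) := ⟨_, rfl⟩
  have t1 : ∀ l, ∀ a ∈ ball (0 : E3) r, T l a ∈ ball (ctr l) (1 / 100) := fun l a ha => by
    subst hT
    fin_cases l
    exacts [ball_subset_ball r3 ha, B1.nS a ha, B1.nR a ha, B2.nS a ha, B2.nR a ha]
  have t2 : ∀ l, ∀ a ∈ ball (0 : E3) r, Φ (T l a) = ENNReal.ofReal (ψ l (T l a)) := fun l a ha => by
    simp only [hΦ]
    rw [Finset.sum_eq_single l (fun m _ hm => Set.indicator_of_notMem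
      (fun h => hm (ball_disj h (t1 l a ha))) _) (by simp), Set.indicator_of_mem (t1 l a ha)]
  have t3 : ∀ l, ∀ a ∈ ball (0 : E3) r, Φ (T l a) ≤ ENNReal.ofReal (ub l / 1000) := fun l a ha => by
    rw [t2 l a ha]
    refine ENNReal.ofReal_le_ofReal ?_
    subst hT hψ
    have a0 := (uu_mem (ball_subset_ball r3 ha)).2
    have a1 := (B1.bv a ha).2
    have a2 := (B1.bw a ha).2
    have a3 := (B2.bv a ha).2
    have a4 := (B2.bw a ha).2
    fin_cases l <;> simp [ub] <;> linarith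
  have t4 : ∀ {l m a b}, a ∈ ball (0 : E3) r → b ∈ ball (0 : E3) r → l ≠ m → T l a ≠ T m b :=
    fun ha hb h e => h (ball_disj (t1 _ _ ha) (e ▸ t1 _ _ hb))
  have q1 : ∀ a ∈ ball (0 : E3) r, ∀ b ∈ ball (0 : E3) r, ∀ c ∈ ball (0 : E3) r,
      QQ Φ (T 0 a) (T 1 b) (T 2 c) a b c := fun a ha b hb c hc => by
    have := B1.qq r3 (Φ := Φ) ha hb hc
    have n1 := t4 ha hb (show (0 : Fin 5) ≠ 1 by decide)
    have n2 := t4 ha hc (show (0 : Fin 5) ≠ 2 by decide)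
    have n3 := t4 hb hc (show (1 : Fin 5) ≠ 2 by decide)
    have p1 := t2 0 a ha
    have p2 := t2 1 b hb
    have p3 := t2 2 c hc
    subst hT hψ
    exact this n1 n2 n3 p1 p2 p3
  have q2 : ∀ a ∈ ball (0 : E3) r, ∀ b ∈ ball (0 : E3) r, ∀ c ∈ ball (0 : E3) r,
      QQ Φ (T 0 a) (T 3 b) (T 4 c) a b c := fun a ha b hb c hc => by
    have := B2.qq r3 (Φ := Φ) ha hb hc
    have n1 := t4 ha hb (show (0 : Fin 5) ≠ 3 by decide)
    have n2 := t4 ha hc (show (0 : Fin 5) ≠ 4 by decide)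
    have n3 := t4 hb hc (show (3 : Fin 5) ≠ 4 by decide)
    have p1 := t2 0 a ha
    have p2 := t2 3 b hb
    have p3 := t2 4 c hc
    subst hT hψ
    exact this n1 n2 n3 p1 p2 p3
  refine ⟨r, T, Φ, r0, fun l => ?_, fun a => by simp [hT], ?_, fun l l' a a' ha ha' e => ?_,
    fun l N hN => ?_, fun l a ha => (t3 l a ha).trans ?_, fun l m n a ha b hb c hc => ?_⟩
  · subst hT
    fin_cases l
    exacts [measurable_id, B1.mS, B1.mR, B2.mS, B2.mR]
  · rw [hΦ]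
    refine ENNReal.measurable_ofReal.comp (Finset.measurable_sum _ fun l _ =>
      Measurable.indicator ?_ measurableSet_ball)
    have c1 : Continuous uu := by unfold uu; fun_prop
    have c2 : ∀ e, Continuous (ww e) := fun e => by unfold ww; fun_prop
    subst hψ
    fin_cases l
    exacts [c1.measurable, B1.mv, (c2 _).measurable, B2.mv, (c2 _).measurable]
  · obtain rfl : l = l' := by by_contra h; exact t4 ha ha' h e
    refine ⟨rfl, ?_⟩
    subst hT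
    fin_cases l
    exacts [e, (B1.inv a ha).symm.trans ((congrArg X1 e).trans (B1.inv a' ha')), B1.injR a ha a' ha' e,
      (B2.inv a ha).symm.trans ((congrArg X2 e).trans (B2.inv a' ha')), B2.injR a ha a' ha' e]
  · subst hT
    fin_cases l
    exacts [measure_mono_null Set.inter_subset_right hN, B1.acS N hN, B1.acR N hN, B2.acS N hN,
      B2.acR N hN]
  · refine ENNReal.ofReal_le_of_le_toReal ?_
    simp only [ub]; split_ifs <;> norm_num
  · by_cases hg : (l, m, n) ∈ glist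
    · have : QQ Φ (T l a) (T m b) (T n c) a b c := by
        simp only [glist, List.mem_cons, List.not_mem_nil, or_false, Prod.mk.injEq] at hg
        rcases hg with h | h | h | h | h | h | h | h | h | h | h | h <;> obtain ⟨rfl, rfl, rfl⟩ := h
        exacts [q1 a ha b hb c hc, (q1 a ha c hc b hb).s23, (q1 b hb a ha c hc).s12,
          (q1 c hc a ha b hb).s12.s23, (q1 b hb c hc a ha).s23.s12, (q1 c hc b hb a ha).s12.s23.s12,
          q2 a ha b hb c hc, (q2 a ha c hc b hb).s23, (q2 b hb a ha c hc).s12,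
          (q2 c hc a ha b hb).s12.s23, (q2 b hb c hc a ha).s23.s12, (q2 c hc b hb a ha).s12.s23.s12]
      exact ⟨this.1, fun H => ⟨hg, this.2.1 H⟩, fun H => this.2.2 H.2.1 H.2.2⟩
    · have h := (table l m n).resolve_left hg
      have : Φ (T l a) + Φ (T m b) + Φ (T n c) < cost (T l a) (T m b) (T n c) := by
        refine lt_of_le_of_lt (add_le_add (add_le_add (t3 l a ha) (t3 m b hb)) (t3 n c hc))
          (lt_of_lt_of_le ?_ (add_le_add (add_le_add (inv_ge (t1 l a ha) (t1 m b hb))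
            (inv_ge (t1 l a ha) (t1 n c hc))) (inv_ge (t1 m b hb) (t1 n c hc))))
        simp (disch := positivity) only [← ENNReal.ofReal_add]
        rw [ENNReal.ofReal_lt_ofReal_iff_of_nonneg (by positivity)]
        have : ((ub l + ub m + ub n : ℕ) : ℝ) < (lb (dsq l m) + lb (dsq l n) + lb (dsq m n) : ℕ) := by
          exact_mod_cast h
        push_cast at this
        linarith
      exact ⟨this.le, fun H => absurd H this.not_ge, fun H => absurd H.1 hg⟩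

lemma cost_meas : Measurable fun p : E3 × E3 × E3 => cost p.1 p.2.1 p.2.2 := by
  unfold cost; fun_prop

def cyc : Fin 6 → Fin 5 × Fin 5 × Fin 5 :=
  ![(0, 1, 2), (1, 2, 0), (2, 0, 1), (0, 3, 4), (3, 4, 0), (4, 0, 3)]

lemma half_sum (μ : Fin 5 → Measure E3) :
    ∑ k, (2⁻¹ : ℝ≥0∞) • μ (cyc k).1 = ∑ l, wt l • μ l ∧
    ∑ k, (2⁻¹ : ℝ≥0∞) • μ (cyc k).2.1 = ∑ l, wt l • μ l ∧
    ∑ k, (2⁻¹ : ℝ≥0∞) • μ (cyc k).2.2 = ∑ l, wt l • μ l := by
  have : μ 0 = (2⁻¹ : ℝ≥0∞) • μ 0 + (2⁻¹ : ℝ≥0∞) • μ 0 := by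
    rw [← add_smul, ENNReal.inv_two_add_inv_two, one_smul]
  simp only [Fin.sum_univ_six, Fin.sum_univ_five, cyc, wt, Matrix.cons_val, one_smul]
  refine ⟨?_, ?_, ?_⟩ <;> conv_rhs => rw [this]
  all_goals abel

theorem main : ∃ μ : Measure E3, IsProbabilityMeasure μ ∧ μ ≪ volume ∧ kant μ < ⊤ ∧
    ∀ T2 T3 : E3 → E3, Measurable T2 → Measurable T3 → μ.map T2 = μ → μ.map T3 = μ →
      ∫⁻ x, cost x (T2 x) (T3 x) ∂μ ≠ kant μ := by
  obtain ⟨r, T, Φ, r0, hT, hT0, mΦ, hi, hac, hb, key⟩ := setup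
  have v0 : volume (ball (0 : E3) r) ≠ 0 := (measure_ball_pos _ _ r0).ne'
  have v1 : volume (ball (0 : E3) r) ≠ ⊤ := measure_ball_lt_top.ne
  obtain ⟨ν, hν⟩ : ∃ ν : Measure E3,
    ν = (3⁻¹ * (volume (ball (0 : E3) r))⁻¹) • volume.restrict (ball 0 r) := ⟨_, rfl⟩
  have n1 : ν Set.univ = 3⁻¹ := by
    rw [hν, Measure.smul_apply, Measure.restrict_apply_univ, smul_eq_mul, mul_assoc,
      ENNReal.inv_mul_cancel v0 v1, mul_one]
  have : IsFiniteMeasure ν := ⟨by rw [n1]; simp⟩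
  have n2 : ∀ᵐ a ∂ν, a ∈ ball (0 : E3) r :=
    hν ▸ Measure.ae_smul_measure (ae_restrict_mem measurableSet_ball) _
  have hP : IsProbabilityMeasure (mm ν T) := ⟨by
    rw [← lintegral_one, lint_mm hT measurable_const]
    simp only [lintegral_one, n1, Fin.sum_univ_five, wt, Matrix.cons_val, ← add_mul]
    rw [add_assoc 1, ENNReal.inv_two_add_inv_two, add_assoc (1 + 1), ENNReal.inv_two_add_inv_two,
      show (1 : ℝ≥0∞) + 1 + 1 = 3 by norm_num, ENNReal.mul_inv_cancel (by simp) (by simp)]⟩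
  have hW := ae_W hT measurableSet_ball n2 hi
  have fin : ∫⁻ x, Φ x ∂(mm ν T) ≤ 3 := by
    refine (lintegral_mono_ae (g := fun _ => 3) (hW.mono ?_)).trans (by simp)
    rintro _ ⟨l, a, ha, rfl⟩
    exact hb l a ha
  have sum3 : ∀ π ∈ Couplings (mm ν T), ∫⁻ p, Φ p.1 + Φ p.2.1 + Φ p.2.2 ∂π =
      ∫⁻ x, Φ x ∂(mm ν T) + ∫⁻ x, Φ x ∂(mm ν T) + ∫⁻ x, Φ x ∂(mm ν T) := by
    rintro π ⟨-, a1, a2, a3⟩
    rw [lintegral_add_right _ (by fun_prop), lintegral_add_right _ (by fun_prop),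
      ← lintegral_map mΦ measurable_fst, ← lintegral_map mΦ measurable_snd.fst,
      ← lintegral_map mΦ measurable_snd.snd, a1, a2, a3]
  have mt : ∀ k, Measurable fun a => (T (cyc k).1 a, T (cyc k).2.1 a, T (cyc k).2.2 a) := fun k =>
    (hT _).prodMk ((hT _).prodMk (hT _))
  obtain ⟨γ, hγ⟩ : ∃ γ : Measure (E3 × E3 × E3), γ = ∑ k, (2⁻¹ : ℝ≥0∞) •
    ν.map fun a => (T (cyc k).1 a, T (cyc k).2.1 a, T (cyc k).2.2 a) := ⟨_, rfl⟩
  have hm : ∀ {f : E3 × E3 × E3 → E3}, Measurable f → γ.map f = ∑ k, (2⁻¹ : ℝ≥0∞) •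
      ν.map fun a => f (T (cyc k).1 a, T (cyc k).2.1 a, T (cyc k).2.2 a) := fun hf => by
    rw [hγ, ← Measure.mapₗ_apply_of_measurable hf, map_sum]
    refine Finset.sum_congr rfl fun k _ => ?_
    rw [map_smul, Measure.mapₗ_apply_of_measurable hf, Measure.map_map hf (mt k)]
    rfl
  obtain ⟨s1, s2, s3⟩ := half_sum fun l => ν.map (T l)
  have g1 : γ.map (fun p => p.1) = mm ν T := (hm measurable_fst).trans s1
  have hC : γ ∈ Couplings (mm ν T) := ⟨⟨by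
      rw [← hP.measure_univ, ← g1, Measure.map_apply measurable_fst .univ, Set.preimage_univ]⟩,
    g1, (hm measurable_snd.fst).trans s2, (hm measurable_snd.snd).trans s3⟩
  have hK : kant (mm ν T) ≤
      ∫⁻ x, Φ x ∂(mm ν T) + ∫⁻ x, Φ x ∂(mm ν T) + ∫⁻ x, Φ x ∂(mm ν T) := by
    refine (iInf₂_le γ hC).trans ((lintegral_mono_ae ?_).trans (sum3 γ hC).le)
    rw [hγ, ae_finsetSum_measure_iff]
    refine fun k _ => Measure.ae_smul_measure ((ae_map_iff (mt k).aemeasurable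
      (measurableSet_le cost_meas (by fun_prop))).2 (n2.mono fun a ha => ?_)) _
    exact (key _ _ _ a ha a ha a ha).2.2 ⟨by fin_cases k <;> decide, rfl, rfl⟩
  have hlt : ∫⁻ x, Φ x ∂(mm ν T) + ∫⁻ x, Φ x ∂(mm ν T) + ∫⁻ x, Φ x ∂(mm ν T) < ⊤ :=
    (add_le_add (add_le_add fin fin) fin).trans_lt (by norm_num)
  refine ⟨mm ν T, hP, Measure.AbsolutelyContinuous.mk fun N mN hN => ?_, hK.trans_lt hlt,
    fun T2 T3 m2 m3 p2 p3 H => ?_⟩
  · simp only [mm, Measure.finsetSum_apply, Measure.smul_apply, Measure.map_apply (hT _) mN]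
    refine Finset.sum_eq_zero fun l _ => ?_
    rw [hν, Measure.smul_apply, Measure.restrict_apply (hT l mN), Set.inter_comm, hac l N hN]
    simp
  · have w2 := ae_of_ae_map m2.aemeasurable (p2.symm ▸ hW)
    have w3 := ae_of_ae_map m3.aemeasurable (p3.symm ▸ hW)
    have a2 : ∫⁻ x, Φ x + Φ (T2 x) + Φ (T3 x) ∂(mm ν T) =
        ∫⁻ x, Φ x ∂(mm ν T) + ∫⁻ x, Φ x ∂(mm ν T) + ∫⁻ x, Φ x ∂(mm ν T) := by
      rw [lintegral_add_right _ (by fun_prop), lintegral_add_right _ (by fun_prop),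
        ← lintegral_map mΦ m2, ← lintegral_map mΦ m3, p2, p3]
    have eq := ae_eq_of_ae_le_of_lintegral_le (μ := mm ν T)
      (f := fun x => Φ x + Φ (T2 x) + Φ (T3 x)) (g := fun x => cost x (T2 x) (T3 x))
      (by
        filter_upwards [hW, w2, w3] with x ⟨l, a, ha, e1⟩ ⟨m, b, hb, e2⟩ ⟨n, c, hc, e3⟩
        rw [e2, e3, e1]
        exact (key l m n a ha b hb c hc).1)
      (a2 ▸ hlt.ne) (cost_meas.comp (measurable_id.prodMk (m2.prodMk m3))).aemeasurable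
      (by rw [H, a2]; exact hK)
    refine no_monge (by rw [n1]; simp) hT hT0 measurableSet_ball n2 hi m2 m3 p2 p3 ?_
    filter_upwards [hW, w2, w3, eq] with x ⟨l, a, ha, e1⟩ ⟨m, b, hb, e2⟩ ⟨n, c, hc, e3⟩ h
    have h' := h.ge
    rw [e2, e3, e1] at h'
    obtain ⟨g, rfl, rfl⟩ := (key l m n a ha b hb c hc).2.1 h'
    exact ⟨a, ha, _, g, e1, e2, e3⟩

end Vale.Agent.P121
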